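import Vale.Agent.P190.Final

/-! P190: a complete local domain of dimension three without small Cohen-Macaulay modules. -/

universe u

theorem Vale.Agent.Results.P190.NoSmallCM.result :
    ∃ (R : Type) (_ : CommRing R) (_ : IsDomain R) (_ : IsNoetherianRing R) (_ : IsLocalRing R),
      IsAdicComplete (IsLocalRing.maximalIdeal R) R ∧ ringKrullDim R = 3 ∧
      ∀ (M : Type u) [AddCommGroup M] [Module R M] [Module.Finite R M] [Nontrivial M]
        (rs : List R), (∀ r ∈ rs, r ∈ IsLocalRing.maximalIdeal R) →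
        RingTheory.Sequence.IsRegular M rs → (rs.length : WithBot ℕ∞) < ringKrullDim R := by
  obtain ⟨R, h1, h2, h3, h4, h5, h6, h7⟩ := Vale.Agent.P190.main.{u}
  exact ⟨R, h1, h2, h3, h4, h5, h6, fun M _ _ _ _ rs hrs hr => h7 M rs hrs hr.toIsWeaklyRegular⟩
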